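import Vale.Agent.Lib.P166.RomMain

/-!
The exact limit in a truncated second moment regime containing `β (a - mean) < 1`, concentration,
freezing, tangent lines, Schur convexity, dependence on the limit law only, failure of the annealed
formula at low temperature, and the random orthogonal model.
-/

open MeasureTheory Filter Matrix
open scoped Topology

namespace Vale.Agent.Results.P166.AnnealedPicture

open Vale.Agent.Lib.P166

/-- Main theorem. `Spec μ a b lam` says that the empirical measures of `lam N` converge weakly to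
the probability measure `μ` carried by `[b, a]` and that all eigenvalues eventually lie in any
neighbourhood of `[b, a]`. Here `psi μ t y = (y - 1 - ∫ log (y - t x) dμ) / 2`. The second part is the
random orthogonal model `μ = (δ₁ + δ₋₁) / 2`. -/
theorem result :
    (∀ {μ : Measure ℝ} {a b : ℝ} {lam : ∀ N, Fin N → ℝ}, Spec μ a b lam →
    -- concentration at every temperature, with variance of order `1 / N`
    (∀ (N : ℕ) (l : Fin N → ℝ) (C β : ℝ), 2 ≤ N → (∀ i, |l i| ≤ C) →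
      ∫ U, (pressure β l U - ∫ V, pressure β l V ∂(haarO N)) ^ 2 ∂(haarO N)
        ≤ Real.pi ^ 2 * β ^ 2 * C ^ 2 / ((N : ℝ) - 1)) ∧
    -- upper bound at every temperature, by the annealed bound at `β'` and freezing
    (∀ β β' y ε : ℝ, 0 < β' → β' ≤ β → β' * a < y → 0 < ε →
      Tendsto (fun N : ℕ => (haarO N).real
        {U | (β / β') * (psi μ β' y + Real.log 2) - Real.log 2 + ε ≤ pressure β (lam N) U})
        atTop (𝓝 0)) ∧
    -- the exact limit in the truncated second moment regime, and the tangent line beyond it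
    (∀ β₁ y₀ : ℝ, 0 < β₁ → β₁ * a < y₀ → (∫ x, 1 / (y₀ - β₁ * x) ∂μ = 1) →
      (∀ R ∈ Set.Ioc (0 : ℝ) 1, ∃ τ y₁ y₂ : ℝ, 0 ≤ τ ∧ τ * (1 + R) * a < y₁ ∧ τ * (1 - R) * a < y₂ ∧
        psi μ (τ * (1 + R)) y₁ + psi μ (τ * (1 - R)) y₂
          - (τ - β₁) * (∫ x, x / (y₀ - β₁ * x) ∂μ) - 2 * psi μ β₁ y₀ < Ifun R) →
      (∀ ε : ℝ, 0 < ε → Tendsto (fun N : ℕ => (haarO N).real
        {U | ε ≤ |pressure β₁ (lam N) U - psi μ β₁ y₀|}) atTop (𝓝 0)) ∧
      (∀ β ε : ℝ, 0 < ε → Tendsto (fun N : ℕ => (haarO N).real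
        {U | pressure β (lam N) U
          ≤ psi μ β₁ y₀ + (β - β₁) * ((1 / 2) * ∫ x, x / (y₀ - β₁ * x) ∂μ) - ε}) atTop (𝓝 0))) ∧
    -- the universal high temperature range, with the tangent line at all temperatures
    (∀ β₁ : ℝ, 0 < β₁ → β₁ * (a - ∫ x, x ∂μ) < 1 →
      ∃ y₀, β₁ * a < y₀ ∧ (∫ x, 1 / (y₀ - β₁ * x) ∂μ = 1) ∧
        (∀ ε : ℝ, 0 < ε → Tendsto (fun N : ℕ => (haarO N).real
          {U | ε ≤ |pressure β₁ (lam N) U - psi μ β₁ y₀|}) atTop (𝓝 0)) ∧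
        (∀ β ε : ℝ, 0 < ε → Tendsto (fun N : ℕ => (haarO N).real
          {U | pressure β (lam N) U
            ≤ psi μ β₁ y₀ + (β - β₁) * ((1 / 2) * ∫ x, x / (y₀ - β₁ * x) ∂μ) - ε}) atTop (𝓝 0))) ∧
    -- Schur convexity of the mean pressure in the spectrum, for every size
    (∀ (N : ℕ) (β : ℝ) (l w : Fin N → ℝ), N ≠ 0 → ∑ i, l i = ∑ i, w i →
      (∀ t : ℝ, ∑ i, max (t - l i) 0 ≤ ∑ i, max (t - w i) 0) →
      ∫ U, pressure β l U ∂(haarO N) ≤ ∫ U, pressure β w U ∂(haarO N)) ∧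
    -- if `a` and `b` are the exact edges of `μ`, only `μ` matters at every temperature
    ((∀ e : ℝ, 0 < e → 0 < μ (Set.Ioi (a - e))) → (∀ e : ℝ, 0 < e → 0 < μ (Set.Iio (b + e))) →
      ∀ lam' : ∀ N, Fin N → ℝ, Spec μ a b lam' → ∀ β : ℝ,
        Tendsto (fun N : ℕ => ∫ U, pressure β (lam N) U ∂(haarO N)
          - ∫ U, pressure β (lam' N) U ∂(haarO N)) atTop (𝓝 0) ∧
        ∀ ε : ℝ, 0 < ε → Tendsto (fun N : ℕ => (haarO N).real
          {U | ε ≤ |pressure β (lam N) U - ∫ V, pressure β (lam' N) V ∂(haarO N)|}) atTop (𝓝 0)) ∧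
    -- unless `μ` is a point mass at `a`, the annealed formula fails at low temperature
    (∀ x₀ : ℝ, x₀ < a → 0 < μ (Set.Iic x₀) → ∃ β₀ : ℝ, 0 < β₀ ∧ ∀ β ≥ β₀, ∀ y : ℝ, β * a < y →
      Tendsto (fun N : ℕ => (haarO N).real
        {U | psi μ β y - 1 / 2 ≤ pressure β (lam N) U}) atTop (𝓝 0))) ∧
    -- the random orthogonal model
    (∀ lam : ∀ N, Fin N → ℝ, Spec romLaw 1 (-1) lam →
      (∀ β ε : ℝ, 0 < β → β ≤ 23864 / 1545 → 0 < ε → Tendsto (fun N : ℕ => (haarO N).real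
        {U | ε ≤ |pressure β (lam N) U - romA β|}) atTop (𝓝 0)) ∧
      (∀ β ε : ℝ, 4 * Real.sqrt 15 ≤ β → 0 < ε → Tendsto (fun N : ℕ => (haarO N).real
        {U | (Real.sqrt 15 / 8) * β - Real.log 2 + ε ≤ pressure β (lam N) U}) atTop (𝓝 0)) ∧
      (∀ β : ℝ, 4 * Real.sqrt 15 < β → (Real.sqrt 15 / 8) * β - Real.log 2 < romA β) ∧
      (∀ β ε : ℝ, 0 < ε → Tendsto (fun N : ℕ => (haarO N).real
        {U | pressure β (lam N) U ≤ romA (23864 / 1545) + (β - 23864 / 1545) * (76 / 157) - ε}) atTop (𝓝 0)) ∧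
      (∀ ε : ℝ, 0 < ε → Tendsto (fun N : ℕ => (haarO N).real {U | ∃ σ : Fin N → Bool,
        Real.sqrt 15 / 4 + ε ≤ (1 / (N : ℝ)) * (spin σ ⬝ᵥ (couplings (lam N) U *ᵥ spin σ))}) atTop (𝓝 0)) ∧
      (∀ ε : ℝ, 0 < ε → Tendsto (fun N : ℕ => (haarO N).real {U | ∀ σ : Fin N → Bool,
        (1 / (N : ℝ)) * (spin σ ⬝ᵥ (couplings (lam N) U *ᵥ spin σ)) ≤ 152 / 157 - ε}) atTop (𝓝 0))) := by
  refine ⟨fun {μ a b lam} h => ⟨fun N l C β hN hC => variance_bound hN β hC, ?_, ?_, ?_, ?_, ?_, ?_⟩, ?_⟩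
  · intro β β' y ε hβ' hβ hy hε
    exact prob_upper h (fun ε' hε' => mean_frozen h hβ' hβ hy hε') hε
  · intro β₁ y₀ hβ hy hs HT
    have hlim := mean_pressure_limit' h hβ hy hs HT
    refine ⟨fun ε hε => prob_limit h hlim hε, fun β ε hε => ?_⟩
    exact prob_lower h (fun ε' hε' => mean_tangent h hβ hy hlim β hε') hε
  · intro β₁ hβ hs
    obtain ⟨y₀, hy, hsad, hlim⟩ := universal_limit h hβ hs
    refine ⟨y₀, hy, hsad, fun ε hε => prob_limit h hlim hε, fun β ε hε => ?_⟩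
    exact prob_lower h (fun ε' hε' => mean_tangent h hβ hy hlim β hε') hε
  · intro N β l w hN hsum H
    exact mean_schur hN β hsum H
  · intro ha hb lam' h' β
    exact ⟨mean_universal h h' ha hb β, fun ε hε => prob_universal h h' ha hb β hε⟩
  · intro x₀ hx₀ hp
    obtain ⟨β₀, hβ₀, H⟩ := annealed_fails h hx₀ hp
    exact ⟨β₀, hβ₀, H⟩
  · intro lam h
    refine ⟨fun β ε hβ hβB hε => rom_limit h hβ hβB hε, fun β ε hβ hε => rom_upper h hβ hε,
      fun β hβ => rom_gap h hβ, fun β ε hε => rom_tangent h β hε, fun ε hε => rom_ground_upper h hε,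
      fun ε hε => rom_ground_lower h hε⟩

end Vale.Agent.Results.P166.AnnealedPicture
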