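import Vale.Agent.Lib.P166.Universal

/-!
Concentration, freezing, the exact limit in a truncated second moment regime containing the range
`β (a - mean) < 1`, tangent line bounds, Schur convexity, and dependence on the limit law only.
-/

open MeasureTheory Filter
open scoped Topology

namespace Vale.Agent.Results.P166.Picture

open Vale.Agent.Lib.P166

/-- Main theorem. `Spec μ a b lam` says that the empirical measures of `lam N` converge weakly to
the probability measure `μ` carried by `[b, a]` and that all eigenvalues eventually lie in any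
neighbourhood of `[b, a]`. Here `psi μ t y = (y - 1 - ∫ log (y - t x) dμ) / 2`. -/
theorem result {μ : Measure ℝ} {a b : ℝ} {lam : ∀ N, Fin N → ℝ} (h : Spec μ a b lam) :
    -- concentration at every temperature, with variance of order `1 / N`
    (∀ (N : ℕ) (l : Fin N → ℝ) (C β : ℝ), 2 ≤ N → (∀ i, |l i| ≤ C) →
      ∫ U, (pressure β l U - ∫ V, pressure β l V ∂(haarO N)) ^ 2 ∂(haarO N)
        ≤ Real.pi ^ 2 * β ^ 2 * C ^ 2 / ((N : ℝ) - 1)) ∧
    -- upper bound at every temperature, by the annealed bound at `β'` and freezing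
    (∀ β β' y ε : ℝ, 0 < β' → β' ≤ β → β' * a < y → 0 < ε →
      Tendsto (fun N : ℕ => (haarO N).real
        {U | (β / β') * (psi μ β' y + Real.log 2) - Real.log 2 + ε ≤ pressure β (lam N) U})
        atTop (𝓝 0)) ∧
    -- the exact limit in the truncated second moment regime, and the tangent line beyond it
    (∀ β₁ y₀ : ℝ, 0 < β₁ → β₁ * a < y₀ → (∫ x, 1 / (y₀ - β₁ * x) ∂μ = 1) →
      (∀ R ∈ Set.Ioc (0 : ℝ) 1, ∃ τ y₁ y₂ : ℝ, 0 ≤ τ ∧ τ * (1 + R) * a < y₁ ∧ τ * (1 - R) * a < y₂ ∧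
        psi μ (τ * (1 + R)) y₁ + psi μ (τ * (1 - R)) y₂
          - (τ - β₁) * (∫ x, x / (y₀ - β₁ * x) ∂μ) - 2 * psi μ β₁ y₀ < Ifun R) →
      (∀ ε : ℝ, 0 < ε → Tendsto (fun N : ℕ => (haarO N).real
        {U | ε ≤ |pressure β₁ (lam N) U - psi μ β₁ y₀|}) atTop (𝓝 0)) ∧
      (∀ β ε : ℝ, 0 < ε → Tendsto (fun N : ℕ => (haarO N).real
        {U | pressure β (lam N) U
          ≤ psi μ β₁ y₀ + (β - β₁) * ((1 / 2) * ∫ x, x / (y₀ - β₁ * x) ∂μ) - ε}) atTop (𝓝 0))) ∧
    -- the universal high temperature range, with the tangent line at all temperatures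
    (∀ β₁ : ℝ, 0 < β₁ → β₁ * (a - ∫ x, x ∂μ) < 1 →
      ∃ y₀, β₁ * a < y₀ ∧ (∫ x, 1 / (y₀ - β₁ * x) ∂μ = 1) ∧
        (∀ ε : ℝ, 0 < ε → Tendsto (fun N : ℕ => (haarO N).real
          {U | ε ≤ |pressure β₁ (lam N) U - psi μ β₁ y₀|}) atTop (𝓝 0)) ∧
        (∀ β ε : ℝ, 0 < ε → Tendsto (fun N : ℕ => (haarO N).real
          {U | pressure β (lam N) U
            ≤ psi μ β₁ y₀ + (β - β₁) * ((1 / 2) * ∫ x, x / (y₀ - β₁ * x) ∂μ) - ε}) atTop (𝓝 0))) ∧
    -- Schur convexity of the mean pressure in the spectrum, for every size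
    (∀ (N : ℕ) (β : ℝ) (l w : Fin N → ℝ), N ≠ 0 → ∑ i, l i = ∑ i, w i →
      (∀ t : ℝ, ∑ i, max (t - l i) 0 ≤ ∑ i, max (t - w i) 0) →
      ∫ U, pressure β l U ∂(haarO N) ≤ ∫ U, pressure β w U ∂(haarO N)) ∧
    -- if `a` and `b` are the exact edges of `μ`, only `μ` matters at every temperature
    ((∀ e : ℝ, 0 < e → 0 < μ (Set.Ioi (a - e))) → (∀ e : ℝ, 0 < e → 0 < μ (Set.Iio (b + e))) →
      ∀ lam' : ∀ N, Fin N → ℝ, Spec μ a b lam' → ∀ β : ℝ,
        Tendsto (fun N : ℕ => ∫ U, pressure β (lam N) U ∂(haarO N)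
          - ∫ U, pressure β (lam' N) U ∂(haarO N)) atTop (𝓝 0) ∧
        ∀ ε : ℝ, 0 < ε → Tendsto (fun N : ℕ => (haarO N).real
          {U | ε ≤ |pressure β (lam N) U - ∫ V, pressure β (lam' N) V ∂(haarO N)|}) atTop (𝓝 0)) := by
  refine ⟨fun N l C β hN hC => variance_bound hN β hC, ?_, ?_, ?_, ?_, ?_⟩
  · intro β β' y ε hβ' hβ hy hε
    exact prob_upper h (fun ε' hε' => mean_frozen h hβ' hβ hy hε') hε
  · intro β₁ y₀ hβ hy hs HT
    have hlim := mean_pressure_limit' h hβ hy hs HT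
    refine ⟨fun ε hε => prob_limit h hlim hε, fun β ε hε => ?_⟩
    exact prob_lower h (fun ε' hε' => mean_tangent h hβ hy hlim β hε') hε
  · intro β₁ hβ hs
    obtain ⟨y₀, hy, hsad, hlim⟩ := universal_limit h hβ hs
    refine ⟨y₀, hy, hsad, fun ε hε => prob_limit h hlim hε, fun β ε hε => ?_⟩
    exact prob_lower h (fun ε' hε' => mean_tangent h hβ hy hlim β hε') hε
  · intro N β l w hN hsum H
    exact mean_schur hN β hsum H
  · intro ha hb lam' h' β
    exact ⟨mean_universal h h' ha hb β, fun ε hε => prob_universal h h' ha hb β hε⟩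

end Vale.Agent.Results.P166.Picture
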