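import Vale.Agent.Lib.P166.HighT

/-!
Concentration at every temperature, the freezing upper bound at every temperature, the exact
limit in the truncated second moment regime, and the tangent line lower bound beyond it.
-/

open MeasureTheory Filter
open scoped Topology

namespace Vale.Agent.Results.P166.SecondMomentRegime

open Vale.Agent.Lib.P166

/-- Main theorem. `Spec μ a b lam` says that the empirical measures of `lam N` converge weakly to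
the probability measure `μ` carried by `[b, a]` and that all eigenvalues eventually lie in any
neighbourhood of `[b, a]`. Here `psi μ t y = (y - 1 - ∫ log (y - t x) dμ) / 2`. -/
theorem result {μ : Measure ℝ} {a b : ℝ} {lam : ∀ N, Fin N → ℝ} (h : Spec μ a b lam) :
    -- concentration at every temperature, with variance of order `1 / N`
    (∀ (N : ℕ) (l : Fin N → ℝ) (C β : ℝ), 2 ≤ N → (∀ i, |l i| ≤ C) →
      ∫ U, (pressure β l U - ∫ V, pressure β l V ∂(haarO N)) ^ 2 ∂(haarO N)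
        ≤ Real.pi ^ 2 * β ^ 2 * C ^ 2 / ((N : ℝ) - 1)) ∧
    -- upper bound at every temperature, by the annealed bound at `β'` and freezing
    (∀ β β' y ε : ℝ, 0 < β' → β' ≤ β → β' * a < y → 0 < ε →
      Tendsto (fun N : ℕ => (haarO N).real
        {U | (β / β') * (psi μ β' y + Real.log 2) - Real.log 2 + ε ≤ pressure β (lam N) U})
        atTop (𝓝 0)) ∧
    -- the exact limit in the truncated second moment regime, and the tangent line beyond it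
    (∀ β₁ y₀ κ : ℝ, 0 < β₁ → β₁ * a < y₀ → (∫ x, 1 / (y₀ - β₁ * x) ∂μ = 1) →
      (β₁ ^ 2 * ∫ x, (x - κ) ^ 2 / (y₀ - β₁ * x) ^ 2 ∂μ < 1) →
      (∀ R ∈ Set.Ioc (0 : ℝ) 1, ∃ τ y₁ y₂ : ℝ, 0 ≤ τ ∧ τ * (1 + R) * a < y₁ ∧ τ * (1 - R) * a < y₂ ∧
        psi μ (τ * (1 + R)) y₁ + psi μ (τ * (1 - R)) y₂
          - (τ - β₁) * (∫ x, x / (y₀ - β₁ * x) ∂μ) - 2 * psi μ β₁ y₀ < Ifun R) →
      (∀ ε : ℝ, 0 < ε → Tendsto (fun N : ℕ => (haarO N).real
        {U | ε ≤ |pressure β₁ (lam N) U - psi μ β₁ y₀|}) atTop (𝓝 0)) ∧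
      (∀ β ε : ℝ, 0 < ε → Tendsto (fun N : ℕ => (haarO N).real
        {U | pressure β (lam N) U
          ≤ psi μ β₁ y₀ + (β - β₁) * ((1 / 2) * ∫ x, x / (y₀ - β₁ * x) ∂μ) - ε}) atTop (𝓝 0))) ∧
    -- an explicit high temperature range
    (∀ β ρ : ℝ, 0 < β → a - ∫ x, x ∂μ ≤ ρ → (∫ x, x ∂μ) - b ≤ ρ → β * ρ ≤ 2 / 5 →
      ∃ y₀, β * a < y₀ ∧ (∫ x, 1 / (y₀ - β * x) ∂μ = 1) ∧
        ∀ ε : ℝ, 0 < ε → Tendsto (fun N : ℕ => (haarO N).real
          {U | ε ≤ |pressure β (lam N) U - psi μ β y₀|}) atTop (𝓝 0)) := by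
  have main : ∀ β₁ y₀ κ : ℝ, 0 < β₁ → β₁ * a < y₀ → (∫ x, 1 / (y₀ - β₁ * x) ∂μ = 1) →
      (β₁ ^ 2 * ∫ x, (x - κ) ^ 2 / (y₀ - β₁ * x) ^ 2 ∂μ < 1) →
      (∀ R ∈ Set.Ioc (0 : ℝ) 1, ∃ τ y₁ y₂ : ℝ, 0 ≤ τ ∧ τ * (1 + R) * a < y₁ ∧ τ * (1 - R) * a < y₂ ∧
        psi μ (τ * (1 + R)) y₁ + psi μ (τ * (1 - R)) y₂
          - (τ - β₁) * (∫ x, x / (y₀ - β₁ * x) ∂μ) - 2 * psi μ β₁ y₀ < Ifun R) →
      Tendsto (fun N : ℕ => ∫ U, pressure β₁ (lam N) U ∂(haarO N)) atTop (𝓝 (psi μ β₁ y₀)) :=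
    fun β₁ y₀ κ hβ hy hs H2 HT => mean_pressure_limit h hβ hy hs H2 HT
  refine ⟨fun N l C β hN hC => variance_bound hN β hC, ?_, ?_, ?_⟩
  · intro β β' y ε hβ' hβ hy hε
    exact prob_upper h (fun ε' hε' => mean_frozen h hβ' hβ hy hε') hε
  · intro β₁ y₀ κ hβ hy hs H2 HT
    have hlim := main β₁ y₀ κ hβ hy hs H2 HT
    refine ⟨fun ε hε => prob_limit h hlim hε, fun β ε hε => ?_⟩
    exact prob_lower h (fun ε' hε' => mean_tangent h hβ hy hlim β hε') hε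
  · intro β ρ hβ hρa hρb hs
    obtain ⟨y₀, hy, hsad, H2, HT⟩ := highT_conditions h hβ hρa hρb hs
    refine ⟨y₀, hy, hsad, fun ε hε => prob_limit h ?_ hε⟩
    exact main β y₀ _ hβ hy hsad H2 (HT _)

end Vale.Agent.Results.P166.SecondMomentRegime
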